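import Mathlib
import Vale.Agent.P295K.Main
import Vale.Agent.P295M.Main2

open MvPolynomial Vale.Agent.P295K Vale.Agent.P295M

theorem Vale.Agent.Results.P295.CriticalLocus.result :
    ∀ (k m : ℕ) (f : MvPolynomial (Fin k ⊕ Fin m) ℂ),
      (∀ i j : Fin m, ∃ c : ℂ, pderiv (Sum.inr i) (pderiv (Sum.inr j) f) = C c) →
      ((Crit f).Finite ∨ k ≤ 1) → IsStableCoord f → IsCoord f := by
  intro k m f h hfin hs
  rcases hfin with hfin | hk
  · exact main2 k f h hfin hs
  · rcases Nat.le_one_iff_eq_zero_or_eq_one.1 hk with h0 | h1
    · subst h0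
      exact main2 0 f h (Set.toFinite _) hs
    · subst h1
      refine hess_main (Sum.inl 0) f (fun i j hi hj => ?_) hs
      cases i with
      | inl a => exact absurd (congrArg Sum.inl (Subsingleton.elim a 0)) hi
      | inr i =>
        cases j with
        | inl a => exact absurd (congrArg Sum.inl (Subsingleton.elim a 0)) hj
        | inr j => exact h i j
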