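import Vale.Agent.P295.Main

/-!
# P295: the stable coordinate conjecture for some classes of polynomials in any number of variables
-/

open MvPolynomial

namespace Vale.Agent.Results.P295.SpecialClasses

open Vale.Agent.P295

/-- Let `f` be a stable coordinate of `ℂ[x_0, …, x_n]` such that some automorphic image of `f` is a
sum of simple polynomials in disjoint sets of variables (simple: univariate, or of degree at most
two, or weighted homogeneous for positive weights), or belongs to the fibrewise class. Then `f` is
a coordinate. -/
theorem result (n : ℕ) (f : MvPolynomial (Fin (n + 1)) ℂ) (hf : IsStableCoordinate f)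
    (A : MvPolynomial (Fin (n + 1)) ℂ ≃ₐ[ℂ] MvPolynomial (Fin (n + 1)) ℂ)
    (hA : IsSimpleSum (A f) ∨ IsFibrewise (A f)) : IsCoordinate f :=
  main f hf A hA

end Vale.Agent.Results.P295.SpecialClasses
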